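import Vale.Agent.Lib.P335.Bip.Defs

/-!
# P335 section 5, leaf S4: the class of a 2 x 2 block has at most two elements
-/

namespace Vale.Agent.Lib.P335.Bip

open Finset
open scoped Classical

variable {R C : Type*} [Fintype R] [Fintype C]

omit [Fintype R] in
private lemma block_rowSum (M : R → C → Bool) (a : R) (T : Finset C) :
    rowSum M a = ∑ j ∈ T, (if M a j = true then 1 else 0)
      + ∑ j ∈ Tᶜ, (if M a j = true then 1 else 0) := by
  unfold rowSum
  rw [Finset.card_filter, Finset.sum_add_sum_compl]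

omit [Fintype C] in
private lemma block_colSum (M : R → C → Bool) (b : C) (S : Finset R) :
    colSum M b = ∑ i ∈ S, (if M i b = true then 1 else 0)
      + ∑ i ∈ Sᶜ, (if M i b = true then 1 else 0) := by
  unfold colSum
  rw [Finset.card_filter, Finset.sum_add_sum_compl]

private lemma block_row_eq {p : Finset R} {q : Finset C} {M M' : R → C → Bool}
    (h : Rel p q M M') (a : R) :
    ∑ j ∈ q, (if M' a j = true then 1 else 0) = ∑ j ∈ q, (if M a j = true then (1 : ℕ) else 0) := by
  have h1 := block_rowSum M' a q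
  have h2 := block_rowSum M a q
  have h3 : ∑ j ∈ qᶜ, (if M' a j = true then 1 else 0)
      = ∑ j ∈ qᶜ, (if M a j = true then (1 : ℕ) else 0) := by
    refine Finset.sum_congr rfl fun j hj => ?_
    rw [h.1 a j (fun hc => (Finset.mem_compl.mp hj) hc.2)]
  have h4 := h.2.1 a
  omega

private lemma block_col_eq {p : Finset R} {q : Finset C} {M M' : R → C → Bool}
    (h : Rel p q M M') (b : C) :
    ∑ i ∈ p, (if M' i b = true then 1 else 0) = ∑ i ∈ p, (if M i b = true then (1 : ℕ) else 0) := by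
  have h1 := block_colSum M' b p
  have h2 := block_colSum M b p
  have h3 : ∑ i ∈ pᶜ, (if M' i b = true then 1 else 0)
      = ∑ i ∈ pᶜ, (if M i b = true then (1 : ℕ) else 0) := by
    refine Finset.sum_congr rfl fun i hi => ?_
    rw [h.1 i b (fun hc => (Finset.mem_compl.mp hi) hc.1)]
  have h4 := h.2.2 b
  omega

private lemma block_bool (m11 m12 m21 m22 n11 n12 n21 n22 : Bool)
    (hr1 : (if n11 = true then 1 else 0) + (if n12 = true then 1 else 0)
      = (if m11 = true then 1 else 0) + (if m12 = true then (1 : ℕ) else 0))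
    (hr2 : (if n21 = true then 1 else 0) + (if n22 = true then 1 else 0)
      = (if m21 = true then 1 else 0) + (if m22 = true then (1 : ℕ) else 0))
    (hc1 : (if n11 = true then 1 else 0) + (if n21 = true then 1 else 0)
      = (if m11 = true then 1 else 0) + (if m21 = true then (1 : ℕ) else 0))
    (hc2 : (if n12 = true then 1 else 0) + (if n22 = true then 1 else 0)
      = (if m12 = true then 1 else 0) + (if m22 = true then (1 : ℕ) else 0))
    (hne : ¬ (n11 = m11 ∧ n12 = m12 ∧ n21 = m21 ∧ n22 = m22)) :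
    n11 = (!m11) ∧ n12 = (!m12) ∧ n21 = (!m21) ∧ n22 = (!m22) ∧
      m12 = (!m11) ∧ m21 = (!m11) ∧ m22 = m11 := by
  revert hr1 hr2 hc1 hc2 hne
  cases m11 <;> cases m12 <;> cases m21 <;> cases m22 <;> cases n11 <;> cases n12 <;>
    cases n21 <;> cases n22 <;> simp

private lemma block_main {p : Finset R} {q : Finset C} (hp : p.card = 2) (hq : q.card = 2)
    {M M' : R → C → Bool} (h : Rel p q M M') (hne : M' ≠ M) :
    ∃ i i' x y, p = {i, i'} ∧ q = {x, y} ∧ i ≠ i' ∧ x ≠ y ∧
      M' i x = (!M i x) ∧ M' i y = (!M i y) ∧ M' i' x = (!M i' x) ∧ M' i' y = (!M i' y) ∧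
      M i y = (!M i x) ∧ M i' x = (!M i x) ∧ M i' y = M i x := by
  obtain ⟨i, i', hii', hpe⟩ := Finset.card_eq_two.mp hp
  obtain ⟨x, y, hxy, hqe⟩ := Finset.card_eq_two.mp hq
  have hr1 := block_row_eq h i
  have hr2 := block_row_eq h i'
  have hc1 := block_col_eq h x
  have hc2 := block_col_eq h y
  rw [hqe, Finset.sum_pair hxy, Finset.sum_pair hxy] at hr1 hr2
  rw [hpe, Finset.sum_pair hii', Finset.sum_pair hii'] at hc1 hc2
  have hne' : ¬ (M' i x = M i x ∧ M' i y = M i y ∧ M' i' x = M i' x ∧ M' i' y = M i' y) := by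
    rintro ⟨e1, e2, e3, e4⟩
    apply hne
    funext a b
    by_cases hab : a ∈ p ∧ b ∈ q
    · obtain ⟨ha, hb⟩ := hab
      rw [hpe, Finset.mem_insert, Finset.mem_singleton] at ha
      rw [hqe, Finset.mem_insert, Finset.mem_singleton] at hb
      rcases ha with ha | ha <;> rcases hb with hb | hb <;> rw [ha, hb] <;> assumption
    · exact h.1 a b hab
  obtain ⟨f1, f2, f3, f4, g1, g2, g3⟩ := block_bool _ _ _ _ _ _ _ _ hr1 hr2 hc1 hc2 hne'
  exact ⟨i, i', x, y, hpe, hqe, hii', hxy, f1, f2, f3, f4, g1, g2, g3⟩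

omit [Fintype R] [Fintype C] in
private lemma block_switch_eq {p : Finset R} {q : Finset C} {M M' : R → C → Bool}
    (h1 : ∀ i j, ¬ (i ∈ p ∧ j ∈ q) → M' i j = M i j) {i i' : R} {x y : C}
    (hp : p = {i, i'}) (hq : q = {x, y})
    (h11 : M' i x = false) (h12 : M' i y = true) (h21 : M' i' x = true)
    (h22 : M' i' y = false) :
    M' = switchMat M i i' x y := by
  funext a b
  unfold switchMat
  split_ifs with c1 c2 c3 c4
  · rw [c1.1, c1.2]
    exact h11
  · rw [c2.1, c2.2]
    exact h12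
  · rw [c3.1, c3.2]
    exact h21
  · rw [c4.1, c4.2]
    exact h22
  · apply h1
    rintro ⟨ha, hb⟩
    rw [hp, Finset.mem_insert, Finset.mem_singleton] at ha
    rw [hq, Finset.mem_insert, Finset.mem_singleton] at hb
    rcases ha with ha | ha <;> rcases hb with hb | hb
    · exact c1 ⟨ha, hb⟩
    · exact c2 ⟨ha, hb⟩
    · exact c3 ⟨ha, hb⟩
    · exact c4 ⟨ha, hb⟩

/-- Inside a 2 x 2 block a class element different from `M` is `M` with the block flipped. -/
theorem rel_pair_flip {p : Finset R} {q : Finset C} (hp : p.card = 2) (hq : q.card = 2)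
    {M M' : R → C → Bool} (h : Rel p q M M') (hne : M' ≠ M) :
    ∀ a ∈ p, ∀ b ∈ q, M' a b = !M a b := by
  obtain ⟨i, i', x, y, hpe, hqe, -, -, f1, f2, f3, f4, -, -, -⟩ := block_main hp hq h hne
  intro a ha b hb
  rw [hpe, Finset.mem_insert, Finset.mem_singleton] at ha
  rw [hqe, Finset.mem_insert, Finset.mem_singleton] at hb
  rcases ha with ha | ha <;> rcases hb with hb | hb <;> rw [ha, hb] <;> assumption

/-- ... and it is a switch of `M`. -/
theorem rel_pair_switch {p : Finset R} {q : Finset C} (hp : p.card = 2) (hq : q.card = 2)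
    {M M' : R → C → Bool} (h : Rel p q M M') (hne : M' ≠ M) :
    ∃ i i' x y, p = {i, i'} ∧ q = {x, y} ∧ i ≠ i' ∧ x ≠ y ∧
      M i x = true ∧ M i' x = false ∧ M i y = false ∧ M i' y = true ∧
      M' = switchMat M i i' x y := by
  obtain ⟨i, i', x, y, hpe, hqe, hii', hxy, f1, f2, f3, f4, g1, g2, g3⟩ :=
    block_main hp hq h hne
  rcases hix : M i x with _ | _
  · rw [hix] at f1 g1 g2 g3
    rw [g1] at f2
    rw [g2] at f3
    rw [g3] at f4
    have hqe' : q = {y, x} := by rw [hqe, Finset.pair_comm]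
    exact ⟨i, i', y, x, hpe, hqe', hii', hxy.symm, g1, g3, hix, g2,
      block_switch_eq h.1 hpe hqe' f2 f1 f4 f3⟩
  · rw [hix] at f1 g1 g2 g3
    rw [g1] at f2
    rw [g2] at f3
    rw [g3] at f4
    exact ⟨i, i', x, y, hpe, hqe, hii', hxy, hix, g2, g1, g3,
      block_switch_eq h.1 hpe hqe f1 f2 f3 f4⟩

/-- The block is determined by the pair `M ≠ M'`. -/
theorem rel_pair_unique {p p' : Finset R} {q q' : Finset C} (hp : p.card = 2) (hq : q.card = 2)
    (hp' : p'.card = 2) (hq' : q'.card = 2) {M M' : R → C → Bool}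
    (h : Rel p q M M') (h' : Rel p' q' M M') (hne : M' ≠ M) : p = p' ∧ q = q' := by
  have hflip := rel_pair_flip hp hq h hne
  have hbool : ∀ t : Bool, t ≠ !t := by decide
  have hmem : ∀ a ∈ p, ∀ b ∈ q, a ∈ p' ∧ b ∈ q' := by
    intro a ha b hb
    by_contra hcon
    have e1 := h'.1 a b hcon
    have e2 := hflip a ha b hb
    rw [e1] at e2
    exact hbool _ e2
  obtain ⟨a₀, ha₀⟩ : p.Nonempty := Finset.card_pos.mp (by omega)
  obtain ⟨b₀, hb₀⟩ : q.Nonempty := Finset.card_pos.mp (by omega)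
  have hpp : p ⊆ p' := fun a ha => (hmem a ha b₀ hb₀).1
  have hqq : q ⊆ q' := fun b hb => (hmem a₀ ha₀ b hb).2
  exact ⟨Finset.eq_of_subset_of_card_le hpp (by omega),
    Finset.eq_of_subset_of_card_le hqq (by omega)⟩

/-- The squared deviation from a 2 x 2 block average. -/
theorem sq_sub_avg_pair {p : Finset R} {q : Finset C} (hp : p.card = 2) (hq : q.card = 2)
    (f : (R → C → Bool) → ℝ) (M : R → C → Bool) :
    (f M - avg p q f M) ^ 2
      = ∑ M' ∈ (cls p q M).filter (fun M' => M' ≠ M), (f M - f M') ^ 2 / 4 := by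
  obtain ⟨D, hD⟩ : ∃ D, D = (cls p q M).filter (fun M' => M' ≠ M) := ⟨_, rfl⟩
  rw [← hD]
  have hrefl : M ∈ cls p q M := by
    unfold cls
    rw [Finset.mem_filter]
    exact ⟨Finset.mem_univ _, fun _ _ _ => rfl, fun _ => rfl, fun _ => rfl⟩
  have hDmem : ∀ M', M' ∈ D ↔ Rel p q M M' ∧ M' ≠ M := by
    intro M'
    rw [hD, Finset.mem_filter]
    unfold cls
    rw [Finset.mem_filter]
    simp
  have hMD : M ∉ D := fun hM => ((hDmem M).mp hM).2 rfl
  have hcls : cls p q M = insert M D := by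
    ext M'
    rw [Finset.mem_insert, hDmem]
    constructor
    · intro hM'
      by_cases e : M' = M
      · exact Or.inl e
      · refine Or.inr ⟨?_, e⟩
        unfold cls at hM'
        exact (Finset.mem_filter.mp hM').2
    · rintro (e | ⟨hr, -⟩)
      · rw [e]
        exact hrefl
      · unfold cls
        exact Finset.mem_filter.mpr ⟨Finset.mem_univ _, hr⟩
  have hcard : D.card ≤ 1 := by
    rw [Finset.card_le_one]
    intro M1 h1 M2 h2
    obtain ⟨r1, n1⟩ := (hDmem M1).mp h1
    obtain ⟨r2, n2⟩ := (hDmem M2).mp h2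
    funext a b
    by_cases hab : a ∈ p ∧ b ∈ q
    · rw [rel_pair_flip hp hq r1 n1 a hab.1 b hab.2, rel_pair_flip hp hq r2 n2 a hab.1 b hab.2]
    · rw [r1.1 a b hab, r2.1 a b hab]
  show (f M - (∑ M' ∈ cls p q M, f M') / ((cls p q M).card : ℝ)) ^ 2 = _
  rw [hcls, Finset.sum_insert hMD, Finset.card_insert_of_notMem hMD]
  rcases Nat.le_one_iff_eq_zero_or_eq_one.mp hcard with h0 | h1
  · rw [Finset.card_eq_zero] at h0
    rw [h0]
    simp
  · obtain ⟨M1, hM1⟩ := Finset.card_eq_one.mp h1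
    rw [hM1]
    simp only [Finset.sum_singleton, Finset.card_singleton]
    push_cast
    ring

end Vale.Agent.Lib.P335.Bip
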