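import Vale.Agent.Lib.P335.Split.Defs

/-!
# P335 section 5, leaf S6: from the energy inequality to the Poincare constant `2 * moveProb n`
and the mixing time bound `n ^ 6`
-/

namespace Vale.Agent.Lib.P335

open Finset
open scoped Classical

variable {n : ℕ}

theorem poincare_of_sum_sq_le {d : Fin n → ℕ}
    (h : ∀ u : SimpleGraph (Fin n) → ℝ, ∑ H ∈ realizations d, u H = 0 →
      ∑ H ∈ realizations d, (u H) ^ 2 ≤ (1 / 4) * switchEnergy d u) :
    Poincare d (2 * moveProb n) := by
  intro u hu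
  have h1 := h u hu
  have hq := moveProb_nonneg n
  have h2 : 2 * moveProb n * ∑ H ∈ realizations d, (u H) ^ 2
      ≤ 2 * moveProb n * ((1 / 4) * switchEnergy d u) :=
    mul_le_mul_of_nonneg_left h1 (by linarith)
  linarith

/-- There are at most `2 ^ (n * n)` graphs on `Fin n`. -/
theorem card_realizations_le (d : Fin n → ℕ) : (realizations d).card ≤ 2 ^ (n * n) := by
  have h1 : (realizations d).card ≤ Fintype.card (SimpleGraph (Fin n)) := Finset.card_le_univ _
  have hinj : Function.Injective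
      (fun (G : SimpleGraph (Fin n)) => fun (a b : Fin n) => decide (G.Adj a b)) := by
    intro G H hGH
    ext a b
    have := congrFun (congrFun hGH a) b
    simpa using this
  have h2 := Fintype.card_le_of_injective _ hinj
  have h3 : Fintype.card (Fin n → Fin n → Bool) = 2 ^ (n * n) := by
    simp [← pow_mul]
  omega

theorem two_moveProb_le_one (hn : 4 ≤ n) : 2 * moveProb n ≤ 1 := by
  have hC : (1 : ℝ) ≤ (n.choose 4 : ℝ) := by
    have : 1 ≤ n.choose 4 := Nat.choose_pos hn
    exact_mod_cast this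
  unfold moveProb
  rw [mul_one_div, div_le_one (by positivity)]
  linarith

theorem four_sq_le_two_moveProb (hn : 4 ≤ n) : 4 * (n : ℝ) ^ 2 ≤ 2 * moveProb n * (n : ℝ) ^ 6 := by
  have hn' : (4 : ℝ) ≤ n := by exact_mod_cast hn
  have hC : (1 : ℝ) ≤ (n.choose 4 : ℝ) := by
    have : 1 ≤ n.choose 4 := Nat.choose_pos hn
    exact_mod_cast this
  have hC2 : 24 * (n.choose 4 : ℝ) ≤ (n : ℝ) ^ 4 := by
    have := Nat.choose_le_pow_div (α := ℝ) 4 n
    have h24 : ((Nat.factorial 4 : ℕ) : ℝ) = 24 := by norm_num [Nat.factorial]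
    rw [h24] at this
    linarith
  unfold moveProb
  have hpos : (0 : ℝ) < 12 * (n.choose 4 : ℝ) := by positivity
  have h1 : 2 * (1 / (12 * (n.choose 4 : ℝ))) * (n : ℝ) ^ 6
      = (n : ℝ) ^ 6 / (6 * (n.choose 4 : ℝ)) := by
    field_simp
    ring
  rw [h1, le_div_iff₀ (by positivity)]
  have h2 : (0 : ℝ) ≤ (n : ℝ) ^ 2 := by positivity
  nlinarith [mul_le_mul_of_nonneg_left hC2 h2]

theorem mixed_of_poincare_two (hn : 4 ≤ n) {d : Fin n → ℕ} (hne : (realizations d).Nonempty)
    (hP : Poincare d (2 * moveProb n)) :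
    (∀ t : ℕ, n ^ 6 ≤ t → IsMixedAt d t) ∧ tmix d ≤ n ^ 6 := by
  have hn' : (4 : ℝ) ≤ n := by exact_mod_cast hn
  have hN1 : (1 : ℝ) ≤ ((realizations d).card : ℝ) := by
    have : 1 ≤ (realizations d).card := Finset.card_pos.mpr hne
    exact_mod_cast this
  have hN2 : ((realizations d).card : ℝ) ≤ (2 : ℝ) ^ (n * n) := by
    have := card_realizations_le d
    exact_mod_cast this
  have hlog : Real.log (4 * ((realizations d).card : ℝ)) ≤ 4 * (n : ℝ) ^ 2 := by
    have h1 : Real.log (4 * ((realizations d).card : ℝ))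
        ≤ Real.log ((2 : ℝ) ^ 2 * (2 : ℝ) ^ (n * n)) := by
      apply Real.log_le_log (by linarith)
      nlinarith
    have h2 : Real.log ((2 : ℝ) ^ 2 * (2 : ℝ) ^ (n * n))
        = ((2 : ℝ) + (n : ℝ) * n) * Real.log 2 := by
      rw [← pow_add, Real.log_pow]
      push_cast
      ring
    have h3 : Real.log 2 ≤ 1 := by
      have := Real.log_two_lt_d9
      linarith
    have h4 : (0 : ℝ) ≤ Real.log 2 := Real.log_nonneg (by norm_num)
    have h5 : ((2 : ℝ) + (n : ℝ) * n) * Real.log 2 ≤ (2 : ℝ) + (n : ℝ) * n := by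
      have : (0 : ℝ) ≤ (2 : ℝ) + (n : ℝ) * n := by positivity
      nlinarith
    nlinarith
  have main : ∀ t : ℕ, n ^ 6 ≤ t → IsMixedAt d t := by
    intro t ht
    have ht' : ((n : ℝ)) ^ 6 ≤ (t : ℝ) := by exact_mod_cast ht
    apply mixed_of_poincare (two_moveProb_le_one hn) hP t
    have h6 := four_sq_le_two_moveProb hn
    have hq : 0 ≤ 2 * moveProb n := by
      have := moveProb_nonneg n
      linarith
    have h7 : 2 * moveProb n * (n : ℝ) ^ 6 ≤ 2 * moveProb n * (t : ℝ) :=
      mul_le_mul_of_nonneg_left ht' hq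
    linarith
  refine ⟨main, ?_⟩
  exact Nat.sInf_le (main (n ^ 6) le_rfl)

end Vale.Agent.Lib.P335
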