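import Vale.Agent.Lib.P335.Chain
import Vale.Agent.Lib.P335.Bip.Defs

/-!
# P335: split degree vectors - definitions for the transfer from 0/1 matrices

`A : Finset (Fin n)` is the clique side.  A graph is split with respect to `A` if `A` is a clique
and the complement of `A` is independent.  `matOf A G` is the 0/1 matrix of the cross edges
(rows in `A`, columns outside `A`, zero elsewhere) and `graphOf A M` is the split graph with
clique `A` whose cross edges are the ones of `M`.
-/

namespace Vale.Agent.Lib.P335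

open Finset
open scoped Classical

variable {n : ℕ}

/-- `G` is split with respect to `A`: `A` is a clique and the complement of `A` is independent. -/
def IsSplit (A : Finset (Fin n)) (G : SimpleGraph (Fin n)) : Prop :=
  (∀ a ∈ A, ∀ b ∈ A, a ≠ b → G.Adj a b) ∧ (∀ a, a ∉ A → ∀ b, b ∉ A → ¬ G.Adj a b)

/-- The 0/1 matrix of the cross edges of `G`: entry `(a, b)` is `true` iff `a ∈ A`, `b ∉ A` and
`a`, `b` are adjacent. -/
noncomputable def matOf (A : Finset (Fin n)) (G : SimpleGraph (Fin n)) : Fin n → Fin n → Bool :=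
  fun a b => decide (a ∈ A ∧ b ∉ A ∧ G.Adj a b)

/-- The split graph with clique `A` whose cross edges are given by `M`. -/
def graphOf (A : Finset (Fin n)) (M : Fin n → Fin n → Bool) : SimpleGraph (Fin n) where
  Adj a b := a ≠ b ∧
    ((a ∈ A ∧ b ∈ A) ∨ (a ∈ A ∧ b ∉ A ∧ M a b = true) ∨ (b ∈ A ∧ a ∉ A ∧ M b a = true))
  symm := ⟨fun a b h => ⟨h.1.symm, by
    rcases h.2 with h | h | h
    · exact Or.inl ⟨h.2, h.1⟩
    · exact Or.inr (Or.inr h)
    · exact Or.inr (Or.inl h)⟩⟩
  loopless := ⟨fun a h => h.1 rfl⟩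

theorem graphOf_adj (A : Finset (Fin n)) (M : Fin n → Fin n → Bool) (a b : Fin n) :
    (graphOf A M).Adj a b ↔ a ≠ b ∧
      ((a ∈ A ∧ b ∈ A) ∨ (a ∈ A ∧ b ∉ A ∧ M a b = true) ∨ (b ∈ A ∧ a ∉ A ∧ M b a = true)) :=
  Iff.rfl

theorem matOf_apply (A : Finset (Fin n)) (G : SimpleGraph (Fin n)) (a b : Fin n) :
    matOf A G a b = true ↔ a ∈ A ∧ b ∉ A ∧ G.Adj a b := by
  unfold matOf
  exact decide_eq_true_iff

end Vale.Agent.Lib.P335
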