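import Vale.Agent.Lib.P335.Split.Defs
import Vale.Agent.Lib.P335.Split.Block

/-!
# P335 section 5, leaf S3: a nontrivial element of a 2 x 2 block class is a switch of the graph
-/

namespace Vale.Agent.Lib.P335

open Finset
open scoped Classical

variable {n : ℕ}

/-- An unordered pair with one end in `A` and one end outside `A` determines its ends. -/
private lemma sym2_eq_cross {A : Finset (Fin n)} {u v a b : Fin n} (hu : u ∈ A)
    (hb : b ∉ A) : s(u, v) = s(a, b) ↔ u = a ∧ v = b := by
  rw [Sym2.eq_iff]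
  constructor
  · rintro (e | ⟨e1, _⟩)
    · exact e
    · exact absurd (e1 ▸ hu) hb
  · intro e
    exact Or.inl e

private lemma sym2_eq_cross' {A : Finset (Fin n)} {u v a b : Fin n} (hu : u ∈ A)
    (ha : a ∉ A) : s(u, v) = s(a, b) ↔ u = b ∧ v = a := by
  rw [Sym2.eq_swap (a := a)]
  exact sym2_eq_cross hu ha

/-- The entries of the switched matrix at a position (clique vertex, independent vertex). -/
private lemma switchMat_cross {A : Finset (Fin n)} {G : SimpleGraph (Fin n)}
    {i i' x y u v : Fin n} (hii : i ≠ i') (hxy : x ≠ y) (hu : u ∈ A) (hv : v ∉ A) :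
    Bip.switchMat (matOf A G) i i' x y u v = true ↔
      (G.Adj u v ∧ ¬ (u = i ∧ v = x) ∧ ¬ (u = i' ∧ v = y)) ∨ (u = i ∧ v = y)
        ∨ (u = i' ∧ v = x) := by
  unfold Bip.switchMat
  by_cases h1 : u = i ∧ v = x
  · rw [if_pos h1]
    constructor
    · intro e
      exact absurd e Bool.false_ne_true
    · rintro (⟨_, h2, _⟩ | ⟨_, h2⟩ | ⟨h2, _⟩)
      · exact absurd h1 h2
      · exact absurd (h1.2.symm.trans h2) hxy
      · exact absurd (h1.1.symm.trans h2) hii
  · rw [if_neg h1]
    by_cases h2 : u = i ∧ v = y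
    · rw [if_pos h2]
      exact ⟨fun _ => Or.inr (Or.inl h2), fun _ => rfl⟩
    · rw [if_neg h2]
      by_cases h3 : u = i' ∧ v = x
      · rw [if_pos h3]
        exact ⟨fun _ => Or.inr (Or.inr h3), fun _ => rfl⟩
      · rw [if_neg h3]
        by_cases h4 : u = i' ∧ v = y
        · rw [if_pos h4]
          constructor
          · intro e
            exact absurd e Bool.false_ne_true
          · rintro (⟨_, _, h5⟩ | h5 | h5)
            · exact absurd h4 h5
            · exact absurd h5 h2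
            · exact absurd h5 h3
        · rw [if_neg h4, matOf_apply]
          constructor
          · intro e
            exact Or.inl ⟨e.2.2, h1, h4⟩
          · rintro (⟨h5, _, _⟩ | h5 | h5)
            · exact ⟨hu, hv, h5⟩
            · exact absurd h5 h2
            · exact absurd h5 h3

/-- Adjacency in the two graphs agrees on pairs (clique vertex, independent vertex). -/
private lemma cross_adj {A : Finset (Fin n)} {G : SimpleGraph (Fin n)} {i i' x y : Fin n}
    (hi : i ∈ A) (hi' : i' ∈ A) (hx : x ∉ A) (hy : y ∉ A) (hii : i ≠ i') (hxy : x ≠ y)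
    {u v : Fin n} (hu : u ∈ A) (hv : v ∉ A) :
    (graphOf A (Bip.switchMat (matOf A G) i i' x y)).Adj u v
      ↔ (switchGraph G i x y i').Adj u v := by
  have huv : u ≠ v := fun e => hv (e ▸ hu)
  have hiy : i ≠ y := fun e => hy (e ▸ hi)
  have hxi' : x ≠ i' := fun e => hx (e.symm ▸ hi')
  rw [graphOf_adj, switchGraph_adj hiy hxi', switchMat_cross hii hxy hu hv]
  simp only [ne_eq, sym2_eq_cross (v := v) (a := i) hu hx, sym2_eq_cross' (v := v) (b := i') hu hy,
    sym2_eq_cross (v := v) (a := i) hu hy, sym2_eq_cross' (v := v) (b := i') hu hx]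
  constructor
  · rintro ⟨_, (⟨_, h2⟩ | ⟨_, _, h2⟩ | ⟨h2, _, _⟩)⟩
    · exact absurd h2 hv
    · exact h2
    · exact absurd h2 hv
  · intro h2
    exact ⟨huv, Or.inr (Or.inl ⟨hu, hv, h2⟩)⟩

theorem isSwitch_graphOf {A : Finset (Fin n)} {G : SimpleGraph (Fin n)} (h : IsSplit A G)
    {p q : Finset (Fin n)} (hp : p ∈ A.powersetCard 2) (hq : q ∈ Aᶜ.powersetCard 2)
    {M' : Fin n → Fin n → Bool} (hM' : Bip.Rel p q (matOf A G) M') (hne : M' ≠ matOf A G) :
    IsSwitch G (graphOf A M') := by
  rw [Finset.mem_powersetCard] at hp hq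
  obtain ⟨i, i', x, y, hpe, hqe, hii, hxy, m1, m2, m3, m4, hMeq⟩ :=
    Bip.rel_pair_switch hp.2 hq.2 hM' hne
  have hi : i ∈ A := hp.1 (by rw [hpe]; simp)
  have hi' : i' ∈ A := hp.1 (by rw [hpe]; simp)
  have hx : x ∉ A := Finset.mem_compl.mp (hq.1 (by rw [hqe]; simp))
  have hy : y ∉ A := Finset.mem_compl.mp (hq.1 (by rw [hqe]; simp))
  have a1 : G.Adj i x := ((matOf_apply A G i x).mp m1).2.2
  have a2 : G.Adj i' y := ((matOf_apply A G i' y).mp m4).2.2
  have a3 : ¬ G.Adj i y := by
    intro hadj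
    have e : matOf A G i y = true := (matOf_apply A G i y).mpr ⟨hi, hy, hadj⟩
    rw [m3] at e
    exact Bool.false_ne_true e
  have a4 : ¬ G.Adj i' x := by
    intro hadj
    have e : matOf A G i' x = true := (matOf_apply A G i' x).mpr ⟨hi', hx, hadj⟩
    rw [m2] at e
    exact Bool.false_ne_true e
  have hix : i ≠ x := fun e => hx (e ▸ hi)
  have hiy : i ≠ y := fun e => hy (e ▸ hi)
  have hxi' : x ≠ i' := fun e => hx (e.symm ▸ hi')
  have hyi' : y ≠ i' := fun e => hy (e.symm ▸ hi')
  rw [isSwitch_iff]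
  refine ⟨i, x, y, i', hix, hiy, hii, hxy, hxi', hyi', a1, a2.symm, a3,
    fun hadj => a4 hadj.symm, ?_⟩
  rw [hMeq]
  ext u v
  by_cases hu : u ∈ A
  · by_cases hv : v ∈ A
    · rw [graphOf_adj, switchGraph_adj hiy hxi']
      constructor
      · rintro ⟨huv, _⟩
        refine Or.inl ⟨h.1 u hu v hv huv, ?_, ?_⟩
        · intro e
          rw [Sym2.eq_iff] at e
          rcases e with ⟨_, e2⟩ | ⟨e1, _⟩
          · exact hx (e2 ▸ hv)
          · exact hx (e1 ▸ hu)
        · intro e
          rw [Sym2.eq_iff] at e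
          rcases e with ⟨e1, _⟩ | ⟨_, e2⟩
          · exact hy (e1 ▸ hu)
          · exact hy (e2 ▸ hv)
      · rintro (⟨hadj, _, _⟩ | e | e)
        · exact ⟨G.ne_of_adj hadj, Or.inl ⟨hu, hv⟩⟩
        · rw [Sym2.eq_iff] at e
          rcases e with ⟨_, e2⟩ | ⟨e1, _⟩
          · exact absurd (e2 ▸ hv) hy
          · exact absurd (e1 ▸ hu) hy
        · rw [Sym2.eq_iff] at e
          rcases e with ⟨e1, _⟩ | ⟨_, e2⟩
          · exact absurd (e1 ▸ hu) hx
          · exact absurd (e2 ▸ hv) hx
    · exact cross_adj hi hi' hx hy hii hxy hu hv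
  · by_cases hv : v ∈ A
    · rw [SimpleGraph.adj_comm, SimpleGraph.adj_comm (switchGraph G i x y i')]
      exact cross_adj hi hi' hx hy hii hxy hv hu
    · rw [graphOf_adj, switchGraph_adj hiy hxi']
      constructor
      · rintro ⟨_, (⟨h2, _⟩ | ⟨h2, _⟩ | ⟨h2, _⟩)⟩
        · exact absurd h2 hu
        · exact absurd h2 hu
        · exact absurd h2 hv
      · rintro (⟨hadj, _, _⟩ | e | e)
        · exact absurd hadj (h.2 u hu v hv)
        · rw [Sym2.eq_iff] at e
          rcases e with ⟨e1, _⟩ | ⟨_, e2⟩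
          · exact absurd (e1.symm ▸ hi) hu
          · exact absurd (e2.symm ▸ hi) hv
        · rw [Sym2.eq_iff] at e
          rcases e with ⟨_, e2⟩ | ⟨e1, _⟩
          · exact absurd (e2.symm ▸ hi') hv
          · exact absurd (e1.symm ▸ hi') hu

end Vale.Agent.Lib.P335
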