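import Vale.Agent.Lib.P335.Split.Mat
import Vale.Agent.Lib.P335.Split.SwitchCorr

/-!
# P335 section 5, leaf S5: the matrix Poincare inequality gives the energy inequality for the
switch chain of a split degree vector

The matrix theorem enters as the hypothesis `hS`.
-/

namespace Vale.Agent.Lib.P335

open Finset
open scoped Classical

variable {n : ℕ}

private theorem energy_rel_symm {S T : Finset (Fin n)} {M M' : Fin n → Fin n → Bool}
    (h : Bip.Rel S T M M') : Bip.Rel S T M' M :=
  ⟨fun i j hij => (h.1 i j hij).symm, fun i => (h.2.1 i).symm, fun j => (h.2.2 j).symm⟩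

private theorem energy_rel_trans {S T : Finset (Fin n)} {M M' M'' : Fin n → Fin n → Bool}
    (h1 : Bip.Rel S T M M') (h2 : Bip.Rel S T M' M'') : Bip.Rel S T M M'' :=
  ⟨fun i j hij => (h2.1 i j hij).trans (h1.1 i j hij), fun i => (h2.2.1 i).trans (h1.2.1 i),
    fun j => (h2.2.2 j).trans (h1.2.2 j)⟩

private theorem energy_rel_mono {S S' T T' : Finset (Fin n)} (hS : S ⊆ S') (hT : T ⊆ T')
    {M M' : Fin n → Fin n → Bool} (h : Bip.Rel S T M M') : Bip.Rel S' T' M M' :=
  ⟨fun i j hij => h.1 i j (fun hc => hij ⟨hS hc.1, hT hc.2⟩), h.2.1, h.2.2⟩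

private theorem energy_sum_ite_le {ι : Type*} (s : Finset ι) (P : ι → Prop) [DecidablePred P]
    (c : ℝ) (hc : 0 ≤ c) (huniq : ∀ x ∈ s, ∀ y ∈ s, P x → P y → x = y) :
    ∑ x ∈ s, (if P x then c else 0) ≤ c := by
  rw [← Finset.sum_filter, Finset.sum_const, nsmul_eq_mul]
  have h1 : (s.filter P).card ≤ 1 := by
    rw [Finset.card_le_one]
    intro a ha b hb
    rw [Finset.mem_filter] at ha hb
    exact huniq a ha.1 b hb.1 ha.2 hb.2
  have h2 : ((s.filter P).card : ℝ) ≤ 1 := by exact_mod_cast h1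
  nlinarith

/-- Sums over the matrix class and over the realizations correspond under `graphOf`. -/
private theorem energy_sum_bij {A : Finset (Fin n)} {d : Fin n → ℕ}
    {G0 : SimpleGraph (Fin n)} (h0 : IsSplit A G0) (hG0 : G0 ∈ realizations d)
    (g : SimpleGraph (Fin n) → ℝ) :
    ∑ M ∈ Bip.cls A Aᶜ (matOf A G0), g (graphOf A M) = ∑ H ∈ realizations d, g H := by
  refine Finset.sum_bij' (fun M _ => graphOf A M) (fun H _ => matOf A H) ?_ ?_ ?_ ?_ ?_
  · intro M hM
    have hM' : Bip.Rel A Aᶜ (matOf A G0) M := by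
      simpa [Bip.cls] using hM
    exact (graphOf_mem_realizations h0 hG0 hM').1
  · intro H hH
    have := rel_matOf h0 hG0 hH
    simpa [Bip.cls] using this
  · intro M hM
    have hM' : Bip.Rel A Aᶜ (matOf A G0) M := by
      simpa [Bip.cls] using hM
    exact (graphOf_mem_realizations h0 hG0 hM').2
  · intro H hH
    exact graphOf_matOf (isSplit_of_realization h0 hG0 hH)
  · intro M _
    rfl

/-- The contribution of one matrix of the class to the right side. -/
private theorem energy_local {A : Finset (Fin n)} {d : Fin n → ℕ}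
    {G0 : SimpleGraph (Fin n)} (h0 : IsSplit A G0) (hG0 : G0 ∈ realizations d)
    (u : SimpleGraph (Fin n) → ℝ) (f : (Fin n → Fin n → Bool) → ℝ)
    (hf : ∀ M, f M = if M ∈ Bip.cls A Aᶜ (matOf A G0) then u (graphOf A M) else 0)
    (M : Fin n → Fin n → Bool) (hM : M ∈ Bip.cls A Aᶜ (matOf A G0)) :
    ∑ x ∈ A.powersetCard 2 ×ˢ Aᶜ.powersetCard 2,
        ∑ M' ∈ (Bip.cls x.1 x.2 M).filter (fun M' => M' ≠ M), (f M - f M') ^ 2 / 4
      ≤ ∑ H ∈ realizations d,
          if IsSwitch (graphOf A M) H then (u (graphOf A M) - u H) ^ 2 / 4 else 0 := by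
  have hM0 : Bip.Rel A Aᶜ (matOf A G0) M := by
    simpa [Bip.cls] using hM
  have hG := graphOf_mem_realizations h0 hG0 hM0
  have hsplit : IsSplit A (graphOf A M) := isSplit_graphOf A M
  -- rewrite the inner sums as sums over all matrices with an indicator
  have h1 : ∀ x ∈ A.powersetCard 2 ×ˢ Aᶜ.powersetCard 2,
      ∑ M' ∈ (Bip.cls x.1 x.2 M).filter (fun M' => M' ≠ M), (f M - f M') ^ 2 / 4
        = ∑ M' : Fin n → Fin n → Bool,
            if Bip.Rel x.1 x.2 M M' ∧ M' ≠ M then (f M - f M') ^ 2 / 4 else 0 := by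
    intro x _
    rw [← Finset.sum_filter]
    apply Finset.sum_congr _ (fun _ _ => rfl)
    ext M'
    simp [Bip.cls]
  rw [Finset.sum_congr rfl h1, Finset.sum_comm]
  -- only matrices of the class contribute
  have h2 : ∀ M' : Fin n → Fin n → Bool,
      ∑ x ∈ A.powersetCard 2 ×ˢ Aᶜ.powersetCard 2,
          (if Bip.Rel x.1 x.2 M M' ∧ M' ≠ M then (f M - f M') ^ 2 / 4 else 0)
        ≤ if M' ∈ Bip.cls A Aᶜ (matOf A G0) then
            (if IsSwitch (graphOf A M) (graphOf A M') then
              (u (graphOf A M) - u (graphOf A M')) ^ 2 / 4 else 0)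
          else 0 := by
    intro M'
    -- a relation inside a 2 x 2 block gives membership in the class and a switch
    have key : ∀ x ∈ A.powersetCard 2 ×ˢ Aᶜ.powersetCard 2,
        Bip.Rel x.1 x.2 M M' ∧ M' ≠ M →
          M' ∈ Bip.cls A Aᶜ (matOf A G0) ∧ IsSwitch (graphOf A M) (graphOf A M') := by
      intro x hx hR
      rw [Finset.mem_product] at hx
      have hp := Finset.mem_powersetCard.mp hx.1
      have hq := Finset.mem_powersetCard.mp hx.2
      have hR' : Bip.Rel A Aᶜ M M' := energy_rel_mono hp.1 hq.1 hR.1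
      have hmem : M' ∈ Bip.cls A Aᶜ (matOf A G0) := by
        have := energy_rel_trans hM0 hR'
        simpa [Bip.cls] using this
      refine ⟨hmem, ?_⟩
      have hR2 : Bip.Rel x.1 x.2 (matOf A (graphOf A M)) M' := by
        rw [hG.2]
        exact hR.1
      have hne2 : M' ≠ matOf A (graphOf A M) := by
        rw [hG.2]
        exact hR.2
      exact isSwitch_graphOf hsplit hx.1 hx.2 hR2 hne2
    by_cases hsw : M' ∈ Bip.cls A Aᶜ (matOf A G0) ∧ IsSwitch (graphOf A M) (graphOf A M')
    · rw [if_pos hsw.1, if_pos hsw.2]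
      have hfM : f M = u (graphOf A M) := by rw [hf M, if_pos hM]
      have hfM' : f M' = u (graphOf A M') := by rw [hf M', if_pos hsw.1]
      rw [hfM, hfM']
      refine energy_sum_ite_le _ _ _ (by positivity) ?_
      intro x hx y hy hPx hPy
      rw [Finset.mem_product] at hx hy
      have hpx := Finset.mem_powersetCard.mp hx.1
      have hqx := Finset.mem_powersetCard.mp hx.2
      have hpy := Finset.mem_powersetCard.mp hy.1
      have hqy := Finset.mem_powersetCard.mp hy.2
      have := Bip.rel_pair_unique hpx.2 hqx.2 hpy.2 hqy.2 hPx.1 hPy.1 hPx.2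
      exact Prod.ext this.1 this.2
    · have hzero : ∑ x ∈ A.powersetCard 2 ×ˢ Aᶜ.powersetCard 2,
          (if Bip.Rel x.1 x.2 M M' ∧ M' ≠ M then (f M - f M') ^ 2 / 4 else 0) = 0 := by
        apply Finset.sum_eq_zero
        intro x hx
        rw [if_neg]
        intro hR
        exact hsw (key x hx hR)
      rw [hzero]
      split_ifs <;> positivity
  refine (Finset.sum_le_sum (fun M' _ => h2 M')).trans ?_
  rw [← Finset.sum_filter]
  have h3 : (Finset.univ.filter (fun M' => M' ∈ Bip.cls A Aᶜ (matOf A G0)))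
      = Bip.cls A Aᶜ (matOf A G0) := by
    ext M'
    simp
  rw [h3]
  exact le_of_eq (energy_sum_bij h0 hG0
    (fun H => if IsSwitch (graphOf A M) H then (u (graphOf A M) - u H) ^ 2 / 4 else 0))

theorem sum_sq_le_switchEnergy {A : Finset (Fin n)} {d : Fin n → ℕ}
    {G0 : SimpleGraph (Fin n)} (h0 : IsSplit A G0) (hG0 : G0 ∈ realizations d)
    (hS : ∀ f : (Fin n → Fin n → Bool) → ℝ,
      ∑ M, (f M - Bip.avg A Aᶜ f M) ^ 2
        ≤ ∑ p ∈ A.powersetCard 2, ∑ q ∈ Aᶜ.powersetCard 2, ∑ M, (f M - Bip.avg p q f M) ^ 2)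
    (u : SimpleGraph (Fin n) → ℝ) (hu : ∑ H ∈ realizations d, u H = 0) :
    ∑ H ∈ realizations d, (u H) ^ 2 ≤ (1 / 4) * switchEnergy d u := by
  set K0 := Bip.cls A Aᶜ (matOf A G0) with hK0
  set f : (Fin n → Fin n → Bool) → ℝ := fun M => if M ∈ K0 then u (graphOf A M) else 0 with hfdef
  have hf : ∀ M, f M = if M ∈ Bip.cls A Aᶜ (matOf A G0) then u (graphOf A M) else 0 :=
    fun M => rfl
  have hfK : ∀ M ∈ K0, f M = u (graphOf A M) := by
    intro M hM
    rw [hf M, if_pos hM]
  have hfnK : ∀ M, M ∉ K0 → f M = 0 := by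
    intro M hM
    rw [hf M, if_neg hM]
  -- the average over the full block vanishes on the class
  have havg : ∀ M ∈ K0, Bip.avg A Aᶜ f M = 0 := by
    intro M hM
    have hM0 : Bip.Rel A Aᶜ (matOf A G0) M := by
      simpa [hK0, Bip.cls] using hM
    have hcls : Bip.cls A Aᶜ M = K0 := by
      ext M'
      simp only [hK0, Bip.cls, Finset.mem_filter, Finset.mem_univ, true_and]
      constructor
      · intro h
        exact energy_rel_trans hM0 h
      · intro h
        exact energy_rel_trans (energy_rel_symm hM0) h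
    unfold Bip.avg
    rw [hcls]
    have hsum : ∑ M' ∈ K0, f M' = 0 := by
      rw [Finset.sum_congr rfl hfK]
      rw [energy_sum_bij h0 hG0 u]
      exact hu
    rw [hsum, zero_div]
  -- left side
  have hL : ∑ H ∈ realizations d, (u H) ^ 2 ≤ ∑ M, (f M - Bip.avg A Aᶜ f M) ^ 2 := by
    have e1 : ∑ H ∈ realizations d, (u H) ^ 2 = ∑ M ∈ K0, (f M - Bip.avg A Aᶜ f M) ^ 2 := by
      rw [← energy_sum_bij h0 hG0 (fun H => (u H) ^ 2)]
      apply Finset.sum_congr rfl
      intro M hM
      rw [havg M hM, hfK M hM, sub_zero]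
    rw [e1]
    exact Finset.sum_le_sum_of_subset_of_nonneg (Finset.subset_univ _)
      (fun M _ _ => sq_nonneg _)
  -- right side
  have hR : ∑ p ∈ A.powersetCard 2, ∑ q ∈ Aᶜ.powersetCard 2, ∑ M, (f M - Bip.avg p q f M) ^ 2
      ≤ (1 / 4) * switchEnergy d u := by
    rw [← Finset.sum_product']
    have e2 : ∀ x ∈ A.powersetCard 2 ×ˢ Aᶜ.powersetCard 2,
        ∑ M, (f M - Bip.avg x.1 x.2 f M) ^ 2
          = ∑ M, ∑ M' ∈ (Bip.cls x.1 x.2 M).filter (fun M' => M' ≠ M),
              (f M - f M') ^ 2 / 4 := by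
      intro x hx
      rw [Finset.mem_product] at hx
      have hp := Finset.mem_powersetCard.mp hx.1
      have hq := Finset.mem_powersetCard.mp hx.2
      exact Finset.sum_congr rfl (fun M _ => Bip.sq_sub_avg_pair hp.2 hq.2 f M)
    rw [Finset.sum_congr rfl e2, Finset.sum_comm]
    -- matrices outside the class contribute nothing
    have e3 : ∀ M : Fin n → Fin n → Bool, M ∉ K0 →
        ∑ x ∈ A.powersetCard 2 ×ˢ Aᶜ.powersetCard 2,
          ∑ M' ∈ (Bip.cls x.1 x.2 M).filter (fun M' => M' ≠ M), (f M - f M') ^ 2 / 4 = 0 := by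
      intro M hM
      apply Finset.sum_eq_zero
      intro x hx
      apply Finset.sum_eq_zero
      intro M' hM'
      rw [Finset.mem_product] at hx
      have hp := Finset.mem_powersetCard.mp hx.1
      have hq := Finset.mem_powersetCard.mp hx.2
      have hRel : Bip.Rel x.1 x.2 M M' := by
        have := (Finset.mem_filter.mp hM').1
        simpa [Bip.cls] using this
      have hM'n : M' ∉ K0 := by
        intro hc
        apply hM
        have hc0 : Bip.Rel A Aᶜ (matOf A G0) M' := by
          simpa [hK0, Bip.cls] using hc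
        have := energy_rel_trans hc0 (energy_rel_symm (energy_rel_mono hp.1 hq.1 hRel))
        simpa [hK0, Bip.cls] using this
      rw [hfnK M hM, hfnK M' hM'n]
      norm_num
    have e4 : ∑ M : Fin n → Fin n → Bool,
        ∑ x ∈ A.powersetCard 2 ×ˢ Aᶜ.powersetCard 2,
          ∑ M' ∈ (Bip.cls x.1 x.2 M).filter (fun M' => M' ≠ M), (f M - f M') ^ 2 / 4
        = ∑ M ∈ K0,
          ∑ x ∈ A.powersetCard 2 ×ˢ Aᶜ.powersetCard 2,
            ∑ M' ∈ (Bip.cls x.1 x.2 M).filter (fun M' => M' ≠ M), (f M - f M') ^ 2 / 4 := by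
      symm
      apply Finset.sum_subset (Finset.subset_univ _)
      intro M _ hM
      exact e3 M hM
    rw [e4]
    have e5 : ∑ M ∈ K0,
          ∑ x ∈ A.powersetCard 2 ×ˢ Aᶜ.powersetCard 2,
            ∑ M' ∈ (Bip.cls x.1 x.2 M).filter (fun M' => M' ≠ M), (f M - f M') ^ 2 / 4
        ≤ ∑ M ∈ K0, ∑ H ∈ realizations d,
            if IsSwitch (graphOf A M) H then (u (graphOf A M) - u H) ^ 2 / 4 else 0 :=
      Finset.sum_le_sum (fun M hM => energy_local h0 hG0 u f hf M hM)
    refine e5.trans (le_of_eq ?_)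
    rw [energy_sum_bij h0 hG0
      (fun G => ∑ H ∈ realizations d, if IsSwitch G H then (u G - u H) ^ 2 / 4 else 0)]
    unfold switchEnergy
    rw [Finset.mul_sum]
    apply Finset.sum_congr rfl
    intro G _
    rw [Finset.mul_sum]
    apply Finset.sum_congr rfl
    intro H _
    split_ifs <;> ring
  exact hL.trans ((hS f).trans hR)

end Vale.Agent.Lib.P335
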