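import Vale.Agent.Lib.P335.Split.Main
import Vale.Agent.Lib.P335.Bip.Main

/-!
# P335 section 5: split degree vectors - the unconditional statements

`Bip.switch_poincare` (the matrix theorem) is plugged into `Split/Main.lean`.
-/

namespace Vale.Agent.Lib.P335

open Finset
open scoped Classical

variable {n : ℕ}

/-- The matrix theorem for rows and columns indexed by `Fin n`, block `A × Aᶜ`. -/
theorem switch_poincare_fin (A : Finset (Fin n)) (f : (Fin n → Fin n → Bool) → ℝ) :
    ∑ M, (f M - Bip.avg A Aᶜ f M) ^ 2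
      ≤ ∑ p ∈ A.powersetCard 2, ∑ q ∈ Aᶜ.powersetCard 2, ∑ M, (f M - Bip.avg p q f M) ^ 2 := by
  have h := Bip.switch_poincare A Aᶜ f
  have key : ∀ (i1 i2 : Fintype (Fin n → Fin n → Bool)) (g : (Fin n → Fin n → Bool) → ℝ),
      @Finset.sum _ _ _ (@Finset.univ _ i1) g = @Finset.sum _ _ _ (@Finset.univ _ i2) g := by
    intro i1 i2 g
    rw [Subsingleton.elim i1 i2]
  calc ∑ M, (f M - Bip.avg A Aᶜ f M) ^ 2 = _ := key _ _ _
    _ ≤ _ := h
    _ = _ := Finset.sum_congr rfl (fun p _ => Finset.sum_congr rfl (fun q _ => key _ _ _))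

/-- Energy inequality for the switch chain of a split degree vector. -/
theorem split_energy {A : Finset (Fin n)} {d : Fin n → ℕ}
    {G0 : SimpleGraph (Fin n)} (h0 : IsSplit A G0) (hG0 : G0 ∈ realizations d)
    (u : SimpleGraph (Fin n) → ℝ) (hu : ∑ H ∈ realizations d, u H = 0) :
    ∑ H ∈ realizations d, (u H) ^ 2 ≤ (1 / 4) * switchEnergy d u :=
  sum_sq_le_switchEnergy h0 hG0 (switch_poincare_fin A) u hu

/-- Poincare constant `2 * moveProb n` for every split degree vector. -/
theorem split_poincare_final {A : Finset (Fin n)} {d : Fin n → ℕ}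
    {G0 : SimpleGraph (Fin n)} (h0 : IsSplit A G0) (hG0 : G0 ∈ realizations d) :
    Poincare d (2 * moveProb n) :=
  split_poincare h0 hG0 (switch_poincare_fin A)

/-- Mixing at every time `t ≥ n ^ 6` for every split degree vector; `tmix d ≤ n ^ 6`. -/
theorem split_mixed_final (hn : 4 ≤ n) {A : Finset (Fin n)} {d : Fin n → ℕ}
    {G0 : SimpleGraph (Fin n)} (h0 : IsSplit A G0) (hG0 : G0 ∈ realizations d) :
    (∀ t : ℕ, n ^ 6 ≤ t → IsMixedAt d t) ∧ tmix d ≤ n ^ 6 :=
  split_mixed hn h0 hG0 (switch_poincare_fin A)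

end Vale.Agent.Lib.P335
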