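import Vale.Agent.Lib.P335.Split.Energy
import Vale.Agent.Lib.P335.Split.Mix

/-!
# P335 section 5: split degree vectors - Poincare constant `2 * moveProb n` and `tmix ≤ n ^ 6`

The matrix theorem (Poincare inequality for the switch graph on 0/1 matrices with fixed margins,
block `A × Aᶜ`) enters as the hypothesis `hS`.
-/

namespace Vale.Agent.Lib.P335

open Finset
open scoped Classical

variable {n : ℕ}

/-- If `d` is the degree vector of a graph `G0` that is split with respect to `A`, the switch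
chain of `d` satisfies the Poincare inequality with constant `2 * moveProb n`. -/
theorem split_poincare {A : Finset (Fin n)} {d : Fin n → ℕ}
    {G0 : SimpleGraph (Fin n)} (h0 : IsSplit A G0) (hG0 : G0 ∈ realizations d)
    (hS : ∀ f : (Fin n → Fin n → Bool) → ℝ,
      ∑ M, (f M - Bip.avg A Aᶜ f M) ^ 2
        ≤ ∑ p ∈ A.powersetCard 2, ∑ q ∈ Aᶜ.powersetCard 2, ∑ M, (f M - Bip.avg p q f M) ^ 2) :
    Poincare d (2 * moveProb n) :=
  poincare_of_sum_sq_le (fun u hu => sum_sq_le_switchEnergy h0 hG0 hS u hu)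

/-- ... and it is mixed at every time `t ≥ n ^ 6`; in particular `tmix d ≤ n ^ 6`. -/
theorem split_mixed (hn : 4 ≤ n) {A : Finset (Fin n)} {d : Fin n → ℕ}
    {G0 : SimpleGraph (Fin n)} (h0 : IsSplit A G0) (hG0 : G0 ∈ realizations d)
    (hS : ∀ f : (Fin n → Fin n → Bool) → ℝ,
      ∑ M, (f M - Bip.avg A Aᶜ f M) ^ 2
        ≤ ∑ p ∈ A.powersetCard 2, ∑ q ∈ Aᶜ.powersetCard 2, ∑ M, (f M - Bip.avg p q f M) ^ 2) :
    (∀ t : ℕ, n ^ 6 ≤ t → IsMixedAt d t) ∧ tmix d ≤ n ^ 6 :=
  mixed_of_poincare_two hn ⟨G0, hG0⟩ (split_poincare h0 hG0 hS)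

end Vale.Agent.Lib.P335
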