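import Vale.Agent.Lib.P335.Split.Struct

/-!
# P335 section 5, leaf S2: split graphs with clique `A` and 0/1 matrices on `A × Aᶜ`
-/

namespace Vale.Agent.Lib.P335

open Finset
open scoped Classical

variable {n : ℕ}

theorem isSplit_graphOf (A : Finset (Fin n)) (M : Fin n → Fin n → Bool) :
    IsSplit A (graphOf A M) := by
  refine ⟨?_, ?_⟩
  · intro a ha b hb hab
    exact ⟨hab, Or.inl ⟨ha, hb⟩⟩
  · intro a ha b hb hadj
    rcases hadj.2 with h | h | h
    · exact ha h.1
    · exact ha h.1
    · exact hb h.1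

theorem matOf_eq_false {A : Finset (Fin n)} {G : SimpleGraph (Fin n)} {a b : Fin n}
    (h : ¬ (a ∈ A ∧ b ∉ A)) : matOf A G a b = false := by
  rw [Bool.eq_false_iff]
  intro hc
  rw [matOf_apply] at hc
  exact h ⟨hc.1, hc.2.1⟩

theorem graphOf_matOf {A : Finset (Fin n)} {G : SimpleGraph (Fin n)} (h : IsSplit A G) :
    graphOf A (matOf A G) = G := by
  ext a b
  rw [graphOf_adj]
  constructor
  · rintro ⟨hab, h1 | h1 | h1⟩
    · exact h.1 a h1.1 b h1.2 hab
    · exact ((matOf_apply A G a b).mp h1.2.2).2.2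
    · exact (((matOf_apply A G b a).mp h1.2.2).2.2).symm
  · intro hadj
    refine ⟨G.ne_of_adj hadj, ?_⟩
    by_cases ha : a ∈ A
    · by_cases hb : b ∈ A
      · exact Or.inl ⟨ha, hb⟩
      · exact Or.inr (Or.inl ⟨ha, hb, (matOf_apply A G a b).mpr ⟨ha, hb, hadj⟩⟩)
    · by_cases hb : b ∈ A
      · exact Or.inr (Or.inr ⟨hb, ha, (matOf_apply A G b a).mpr ⟨hb, ha, hadj.symm⟩⟩)
      · exact absurd hadj (h.2 a ha b hb)

theorem matOf_graphOf {A : Finset (Fin n)} {M : Fin n → Fin n → Bool}
    (hM : ∀ a b, ¬ (a ∈ A ∧ b ∈ Aᶜ) → M a b = false) : matOf A (graphOf A M) = M := by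
  funext a b
  by_cases hab : a ∈ A ∧ b ∉ A
  · rw [Bool.eq_iff_iff, matOf_apply, graphOf_adj]
    constructor
    · rintro ⟨_, _, _, h1 | h1 | h1⟩
      · exact absurd h1.2 hab.2
      · exact h1.2.2
      · exact absurd h1.1 hab.2
    · intro h1
      refine ⟨hab.1, hab.2, ?_, Or.inr (Or.inl ⟨hab.1, hab.2, h1⟩)⟩
      intro e
      exact hab.2 (e ▸ hab.1)
  · rw [matOf_eq_false hab, hM a b]
    intro hc
    exact hab ⟨hc.1, Finset.mem_compl.mp hc.2⟩

theorem degree_eq_card_filter (G : SimpleGraph (Fin n)) (v : Fin n) :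
    G.degree v = (univ.filter (fun w => G.Adj v w)).card := by
  rw [← SimpleGraph.card_neighborFinset_eq_degree, SimpleGraph.neighborFinset_eq_filter]

/-- Degree of a clique vertex of a split graph. -/
theorem degree_of_mem {A : Finset (Fin n)} {G : SimpleGraph (Fin n)} (h : IsSplit A G)
    {i : Fin n} (hi : i ∈ A) : G.degree i = (A.card - 1) + Bip.rowSum (matOf A G) i := by
  rw [degree_eq_card_filter, ← Finset.card_erase_of_mem hi]
  unfold Bip.rowSum
  rw [← Finset.card_union_of_disjoint]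
  · congr 1
    ext w
    simp only [Finset.mem_filter, Finset.mem_univ, true_and, Finset.mem_union, Finset.mem_erase,
      matOf_apply]
    constructor
    · intro hadj
      by_cases hw : w ∈ A
      · exact Or.inl ⟨(G.ne_of_adj hadj).symm, hw⟩
      · exact Or.inr ⟨hi, hw, hadj⟩
    · rintro (h1 | h1)
      · exact h.1 i hi w h1.2 (fun e => h1.1 e.symm)
      · exact h1.2.2
  · rw [Finset.disjoint_left]
    intro w hw1 hw2
    simp only [Finset.mem_filter, Finset.mem_univ, true_and, matOf_apply] at hw2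
    exact hw2.2.1 (Finset.mem_of_mem_erase hw1)

/-- Degree of an independent-side vertex of a split graph. -/
theorem degree_of_not_mem {A : Finset (Fin n)} {G : SimpleGraph (Fin n)} (h : IsSplit A G)
    {j : Fin n} (hj : j ∉ A) : G.degree j = Bip.colSum (matOf A G) j := by
  rw [degree_eq_card_filter]
  unfold Bip.colSum
  congr 1
  ext w
  simp only [Finset.mem_filter, Finset.mem_univ, true_and, matOf_apply]
  constructor
  · intro hadj
    refine ⟨?_, hj, hadj.symm⟩
    by_contra hw
    exact h.2 j hj w hw hadj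
  · intro h1
    exact h1.2.2.symm

theorem rowSum_matOf_of_not_mem {A : Finset (Fin n)} {G : SimpleGraph (Fin n)} {i : Fin n}
    (hi : i ∉ A) : Bip.rowSum (matOf A G) i = 0 := by
  unfold Bip.rowSum
  rw [Finset.card_eq_zero, Finset.filter_eq_empty_iff]
  intro j _ hc
  exact hi ((matOf_apply A G i j).mp hc).1

theorem colSum_matOf_of_mem {A : Finset (Fin n)} {G : SimpleGraph (Fin n)} {j : Fin n}
    (hj : j ∈ A) : Bip.colSum (matOf A G) j = 0 := by
  unfold Bip.colSum
  rw [Finset.card_eq_zero, Finset.filter_eq_empty_iff]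
  intro i _ hc
  exact ((matOf_apply A G i j).mp hc).2.1 hj

theorem rel_matOf {A : Finset (Fin n)} {d : Fin n → ℕ} {G0 G : SimpleGraph (Fin n)}
    (h0 : IsSplit A G0) (hG0 : G0 ∈ realizations d) (hG : G ∈ realizations d) :
    Bip.Rel A Aᶜ (matOf A G0) (matOf A G) := by
  have hs := isSplit_of_realization h0 hG0 hG
  have hd0 : ∀ v, G0.degree v = d v := by
    simpa [realizations] using hG0
  have hd : ∀ v, G.degree v = d v := by
    simpa [realizations] using hG
  refine ⟨?_, ?_, ?_⟩
  · intro i j hij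
    have hij' : ¬ (i ∈ A ∧ j ∉ A) := fun hc => hij ⟨hc.1, Finset.mem_compl.mpr hc.2⟩
    rw [matOf_eq_false hij', matOf_eq_false hij']
  · intro i
    by_cases hi : i ∈ A
    · have h1 := degree_of_mem hs hi
      have h2 := degree_of_mem h0 hi
      have h3 : G.degree i = G0.degree i := by rw [hd, hd0]
      omega
    · rw [rowSum_matOf_of_not_mem hi, rowSum_matOf_of_not_mem hi]
  · intro j
    by_cases hj : j ∈ A
    · rw [colSum_matOf_of_mem hj, colSum_matOf_of_mem hj]
    · have h1 := degree_of_not_mem hs hj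
      have h2 := degree_of_not_mem h0 hj
      have h3 : G.degree j = G0.degree j := by rw [hd, hd0]
      omega

theorem graphOf_mem_realizations {A : Finset (Fin n)} {d : Fin n → ℕ}
    {G0 : SimpleGraph (Fin n)} (h0 : IsSplit A G0) (hG0 : G0 ∈ realizations d)
    {M : Fin n → Fin n → Bool} (hM : Bip.Rel A Aᶜ (matOf A G0) M) :
    graphOf A M ∈ realizations d ∧ matOf A (graphOf A M) = M := by
  have hd0 : ∀ v, G0.degree v = d v := by
    simpa [realizations] using hG0
  have hsupp : ∀ a b, ¬ (a ∈ A ∧ b ∈ Aᶜ) → M a b = false := by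
    intro a b hab
    rw [hM.1 a b hab]
    exact matOf_eq_false (fun hc => hab ⟨hc.1, Finset.mem_compl.mpr hc.2⟩)
  have hmat := matOf_graphOf hsupp
  refine ⟨?_, hmat⟩
  have hs := isSplit_graphOf A M
  simp only [realizations, Finset.mem_filter, Finset.mem_univ, true_and]
  intro v
  by_cases hv : v ∈ A
  · rw [degree_of_mem hs hv, hmat, hM.2.1 v, ← degree_of_mem h0 hv, hd0]
  · rw [degree_of_not_mem hs hv, hmat, hM.2.2 v, ← degree_of_not_mem h0 hv, hd0]

end Vale.Agent.Lib.P335
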