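import Vale.Agent.Lib.P335.Split.Defs

/-!
# P335 section 5, leaf S1: every realization of the degree vector of a split graph is split
-/

namespace Vale.Agent.Lib.P335

open Finset
open scoped Classical

variable {n : ℕ}

/-- Degree balance across the cut `A`: the sum of the degrees in `A` plus the number of ordered
adjacent pairs outside `A` equals the sum of the degrees outside `A` plus the number of ordered
adjacent pairs inside `A`. -/
theorem degree_balance (A : Finset (Fin n)) (K : SimpleGraph (Fin n)) :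
    (∑ a ∈ A, K.degree a) + (∑ x ∈ Aᶜ ×ˢ Aᶜ, if K.Adj x.1 x.2 then 1 else 0)
      = (∑ b ∈ Aᶜ, K.degree b) + (∑ x ∈ A ×ˢ A, if K.Adj x.1 x.2 then 1 else 0) := by
  have hdeg : ∀ v : Fin n, K.degree v
      = (∑ w ∈ A, if K.Adj v w then 1 else 0) + (∑ w ∈ Aᶜ, if K.Adj v w then 1 else 0) := by
    intro v
    rw [degree_eq_sum, ← Finset.sum_add_sum_compl A]
  have h1 : ∑ a ∈ A, K.degree a
      = (∑ x ∈ A ×ˢ A, if K.Adj x.1 x.2 then 1 else 0)
        + (∑ x ∈ A ×ˢ Aᶜ, if K.Adj x.1 x.2 then 1 else 0) := by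
    rw [Finset.sum_product, Finset.sum_product, ← Finset.sum_add_distrib]
    exact Finset.sum_congr rfl (fun a _ => hdeg a)
  have h2 : ∑ b ∈ Aᶜ, K.degree b
      = (∑ x ∈ Aᶜ ×ˢ A, if K.Adj x.1 x.2 then 1 else 0)
        + (∑ x ∈ Aᶜ ×ˢ Aᶜ, if K.Adj x.1 x.2 then 1 else 0) := by
    rw [Finset.sum_product, Finset.sum_product, ← Finset.sum_add_distrib]
    exact Finset.sum_congr rfl (fun a _ => hdeg a)
  have h3 : (∑ x ∈ Aᶜ ×ˢ A, if K.Adj x.1 x.2 then 1 else 0)
      = ∑ x ∈ A ×ˢ Aᶜ, if K.Adj x.1 x.2 then 1 else 0 := by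
    rw [Finset.sum_product, Finset.sum_product, Finset.sum_comm]
    refine Finset.sum_congr rfl (fun a _ => Finset.sum_congr rfl (fun b _ => ?_))
    simp only [K.adj_comm b a]
  rw [h1, h2, h3]
  ring

theorem isSplit_of_realization {A : Finset (Fin n)} {d : Fin n → ℕ}
    {G0 G : SimpleGraph (Fin n)} (h0 : IsSplit A G0) (hG0 : G0 ∈ realizations d)
    (hG : G ∈ realizations d) : IsSplit A G := by
  have hd0 : ∀ v, G0.degree v = d v := by
    simpa [realizations] using hG0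
  have hd : ∀ v, G.degree v = d v := by
    simpa [realizations] using hG
  have b0 := degree_balance A G0
  have b := degree_balance A G
  -- for `G0` the outside count vanishes
  have hout0 : (∑ x ∈ Aᶜ ×ˢ Aᶜ, if G0.Adj x.1 x.2 then 1 else 0) = 0 := by
    apply Finset.sum_eq_zero
    intro x hx
    rw [Finset.mem_product, Finset.mem_compl, Finset.mem_compl] at hx
    rw [if_neg (h0.2 x.1 hx.1 x.2 hx.2)]
  -- for `G0` the inside count is full
  have hin0 : (∑ x ∈ A ×ˢ A, if G0.Adj x.1 x.2 then 1 else 0)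
      = ∑ x ∈ A ×ˢ A, if x.1 ≠ x.2 then 1 else 0 := by
    apply Finset.sum_congr rfl
    intro x hx
    rw [Finset.mem_product] at hx
    by_cases hne : x.1 = x.2
    · rw [if_neg (by simp [hne]), if_neg (by simp [hne])]
    · rw [if_pos (h0.1 x.1 hx.1 x.2 hx.2 hne), if_pos hne]
  -- for `G` the inside count is at most full
  have hle : ∀ x ∈ A ×ˢ A, (if G.Adj x.1 x.2 then 1 else 0) ≤ (if x.1 ≠ x.2 then 1 else 0) := by
    intro x _
    by_cases hadj : G.Adj x.1 x.2
    · rw [if_pos hadj, if_pos (G.ne_of_adj hadj)]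
    · rw [if_neg hadj]
      exact Nat.zero_le _
  have hin : (∑ x ∈ A ×ˢ A, if G.Adj x.1 x.2 then 1 else 0)
      ≤ ∑ x ∈ A ×ˢ A, if x.1 ≠ x.2 then 1 else 0 := Finset.sum_le_sum hle
  have e1 : ∑ a ∈ A, G.degree a = ∑ a ∈ A, G0.degree a :=
    Finset.sum_congr rfl (fun a _ => by rw [hd, hd0])
  have e2 : ∑ a ∈ Aᶜ, G.degree a = ∑ a ∈ Aᶜ, G0.degree a :=
    Finset.sum_congr rfl (fun a _ => by rw [hd, hd0])
  have hout : (∑ x ∈ Aᶜ ×ˢ Aᶜ, if G.Adj x.1 x.2 then 1 else 0) = 0 := by omega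
  have hinEq : (∑ x ∈ A ×ˢ A, if G.Adj x.1 x.2 then 1 else 0)
      = ∑ x ∈ A ×ˢ A, if x.1 ≠ x.2 then 1 else 0 := by omega
  refine ⟨?_, ?_⟩
  · intro a ha b hb hab
    have := (Finset.sum_eq_sum_iff_of_le hle).mp hinEq (a, b) (Finset.mem_product.mpr ⟨ha, hb⟩)
    by_contra hadj
    simp only [hadj, if_false] at this
    simp at this
    exact hab this
  · intro a ha b hb hadj
    have := (Finset.sum_eq_zero_iff.mp hout) (a, b)
      (Finset.mem_product.mpr ⟨Finset.mem_compl.mpr ha, Finset.mem_compl.mpr hb⟩)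
    simp [hadj] at this

end Vale.Agent.Lib.P335
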